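import Mathlib

/-!
P043 (periodic tiling conjecture): products.  Tiles of product form, and sets fibred over a tile.
-/

set_option autoImplicit false

namespace Vale.Agent.Results.P043.FibredTiles

universe u v

/-- `A ⊕ F = G`: every `g` is uniquely `a + f` with `a ∈ A`, `f ∈ F` -/
def Tiling {G : Type u} [AddCommGroup G] (A F : Set G) : Prop :=
  ∀ g : G, ∃! p : G × G, p.1 ∈ A ∧ p.2 ∈ F ∧ p.1 + p.2 = g

/-- invariance under a subgroup of finite index -/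
def Periodic {G : Type u} [AddCommGroup G] (A : Set G) : Prop :=
  ∃ K : AddSubgroup G, K.FiniteIndex ∧ ∀ h ∈ K, ∀ a : G, a + h ∈ A ↔ a ∈ A

/-- `F` is a translational tile -/
def IsTile {G : Type u} [AddCommGroup G] (F : Set G) : Prop := ∃ A : Set G, Tiling A F

/-- `F` has a periodic tiling -/
def HasPeriodic {G : Type u} [AddCommGroup G] (F : Set G) : Prop :=
  ∃ A : Set G, Tiling A F ∧ Periodic A

variable {G : Type u} {H : Type v} [AddCommGroup G] [AddCommGroup H]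

theorem slice (F1 : Set G) (F2 : Set H) (A : Set (G × H)) (h : Tiling A (F1 ×ˢ F2)) (y : H) :
    Tiling {a : G | ∃ f ∈ F2, (a, y - f) ∈ A} F1 := by
  intro g
  obtain ⟨p, ⟨hp1, hp2, hp3⟩, huniq⟩ := h (g, y)
  refine ⟨(p.1.1, p.2.1), ⟨⟨p.2.2, hp2.2, ?_⟩, hp2.1, congrArg Prod.fst hp3⟩, ?_⟩
  · have h1 : p.1.2 + p.2.2 = y := congrArg Prod.snd hp3
    have h2 : y - p.2.2 = p.1.2 := by rw [← h1, add_sub_cancel_right]
    rw [h2]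
    exact hp1
  · rintro ⟨a, x⟩ ⟨⟨f, hf, haf⟩, hx, hax⟩
    have h1 := huniq ((a, y - f), (x, f)) ⟨haf, ⟨hx, hf⟩, Prod.ext hax (sub_add_cancel y f)⟩
    rw [← h1]

theorem slice' (F1 : Set G) (F2 : Set H) (A : Set (G × H)) (h : Tiling A (F1 ×ˢ F2)) (x : G) :
    Tiling {b : H | ∃ f ∈ F1, (x - f, b) ∈ A} F2 := by
  intro g
  obtain ⟨p, ⟨hp1, hp2, hp3⟩, huniq⟩ := h (x, g)
  refine ⟨(p.1.2, p.2.2), ⟨⟨p.2.1, hp2.1, ?_⟩, hp2.2, congrArg Prod.snd hp3⟩, ?_⟩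
  · have h1 : p.1.1 + p.2.1 = x := congrArg Prod.fst hp3
    have h2 : x - p.2.1 = p.1.1 := by rw [← h1, add_sub_cancel_right]
    rw [h2]
    exact hp1
  · rintro ⟨a, z⟩ ⟨⟨f, hf, haf⟩, hx, hax⟩
    have h1 := huniq ((x - f, a), (f, z)) ⟨haf, ⟨hf, hx⟩, Prod.ext (sub_add_cancel x f) hax⟩
    rw [← h1]

theorem glue (F : Set (G × H)) (F2 : Set H) (A1 : Set G) (A2 : Set H)
    (hF : ∀ p ∈ F, p.2 ∈ F2) (h1 : ∀ y ∈ F2, Tiling A1 {x | (x, y) ∈ F}) (h2 : Tiling A2 F2) :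
    Tiling (A1 ×ˢ A2) F := by
  rintro ⟨g, y⟩
  obtain ⟨q, ⟨hq1, hq2, hq3⟩, hq⟩ := h2 y
  obtain ⟨p, ⟨hp1, hp2, hp3⟩, hp⟩ := h1 q.2 hq2 g
  refine ⟨((p.1, q.1), (p.2, q.2)), ⟨⟨hp1, hq1⟩, hp2, Prod.ext hp3 hq3⟩, ?_⟩
  rintro ⟨⟨a, b⟩, ⟨x, z⟩⟩ ⟨⟨ha, hb⟩, hxz, he⟩
  have e1 := hq (b, z) ⟨hb, hF _ hxz, congrArg Prod.snd he⟩
  subst e1
  have e2 := hp (a, x) ⟨ha, hxz, congrArg Prod.fst he⟩
  subst e2
  rfl

theorem per_prod {A1 : Set G} {A2 : Set H} (h1 : Periodic A1) (h2 : Periodic A2) :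
    Periodic (A1 ×ˢ A2) := by
  obtain ⟨K1, hf1, hK1⟩ := h1
  obtain ⟨K2, hf2, hK2⟩ := h2
  refine ⟨K1.prod K2, ⟨?_⟩, ?_⟩
  · rw [AddSubgroup.index_prod]
    exact mul_ne_zero hf1.index_ne_zero hf2.index_ne_zero
  · rintro ⟨k1, k2⟩ hk ⟨a, b⟩
    obtain ⟨hk1, hk2⟩ := AddSubgroup.mem_prod.1 hk
    exact and_congr (hK1 k1 hk1 a) (hK2 k2 hk2 b)

theorem per_slice {A : Set (G × H)} (h : Periodic A) (F2 : Set H) (y : H) :
    Periodic {a : G | ∃ f ∈ F2, (a, y - f) ∈ A} := by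
  obtain ⟨K, hK, hA⟩ := h
  refine ⟨K.comap (AddMonoidHom.inl G H), ⟨by
    rw [AddSubgroup.index_comap]
    exact (inferInstance : (K.addSubgroupOf (AddMonoidHom.inl G H).range).FiniteIndex).index_ne_zero⟩, fun k hk a => ?_⟩
  refine exists_congr fun f => and_congr_right fun _ => ?_
  have := hA (k, 0) hk (a, y - f)
  simpa using this

theorem per_slice' {A : Set (G × H)} (h : Periodic A) (F1 : Set G) (x : G) :
    Periodic {b : H | ∃ f ∈ F1, (x - f, b) ∈ A} := by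
  obtain ⟨K, hK, hA⟩ := h
  refine ⟨K.comap (AddMonoidHom.inr G H), ⟨by
    rw [AddSubgroup.index_comap]
    exact (inferInstance : (K.addSubgroupOf (AddMonoidHom.inr G H).range).FiniteIndex).index_ne_zero⟩, fun k hk a => ?_⟩
  refine exists_congr fun f => and_congr_right fun _ => ?_
  have := hA (0, k) hk (x - f, a)
  simpa using this

/-- Products and fibred sets. -/
theorem result (G : Type u) (H : Type v) [AddCommGroup G] [AddCommGroup H] :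
    (∀ (F1 : Set G) (F2 : Set H),
      (IsTile (F1 ×ˢ F2) ↔ IsTile F1 ∧ IsTile F2) ∧
      (HasPeriodic (F1 ×ˢ F2) ↔ HasPeriodic F1 ∧ HasPeriodic F2)) ∧
    (∀ (F : Set (G × H)) (F2 : Set H) (A1 : Set G), F2 = Prod.snd '' F →
      (∀ y ∈ F2, Tiling A1 {x | (x, y) ∈ F}) →
      (IsTile F2 → IsTile F) ∧ (Periodic A1 → HasPeriodic F2 → HasPeriodic F)) := by
  refine ⟨fun F1 F2 => ⟨⟨?_, ?_⟩, ?_, ?_⟩, ?_⟩
  · rintro ⟨A, hA⟩
    exact ⟨⟨_, slice F1 F2 A hA 0⟩, ⟨_, slice' F1 F2 A hA 0⟩⟩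
  · rintro ⟨⟨A1, h1⟩, A2, h2⟩
    refine ⟨_, glue (F1 ×ˢ F2) F2 A1 A2 (fun p hp => hp.2) (fun y hy => ?_) h2⟩
    have : {x | (x, y) ∈ F1 ×ˢ F2} = F1 := by
      ext x
      simp [hy]
    rwa [this]
  · rintro ⟨A, hA, hP⟩
    exact ⟨⟨_, slice F1 F2 A hA 0, per_slice hP F2 0⟩, ⟨_, slice' F1 F2 A hA 0, per_slice' hP F1 0⟩⟩
  · rintro ⟨⟨A1, h1, hP1⟩, A2, h2, hP2⟩
    refine ⟨_, glue (F1 ×ˢ F2) F2 A1 A2 (fun p hp => hp.2) (fun y hy => ?_) h2, per_prod hP1 hP2⟩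
    have : {x | (x, y) ∈ F1 ×ˢ F2} = F1 := by
      ext x
      simp [hy]
    rwa [this]
  · rintro F F2 A1 rfl h1
    refine ⟨?_, ?_⟩
    · rintro ⟨A2, h2⟩
      exact ⟨_, glue F (Prod.snd '' F) A1 A2 (fun p hp => ⟨p, hp, rfl⟩) h1 h2⟩
    · rintro hP1 ⟨A2, h2, hP2⟩
      exact ⟨_, glue F (Prod.snd '' F) A1 A2 (fun p hp => ⟨p, hp, rfl⟩) h1 h2, per_prod hP1 hP2⟩

end Vale.Agent.Results.P043.FibredTiles
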