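import Vale.Agent.P043.Main

namespace Vale.Agent.Results.P043.ProductTiles

open Vale.Agent.P043

universe u v

/-- For arbitrary abelian groups: a product `F × E` tiles `G × H` if and only if `F` tiles `G`
and `E` tiles `H`; it admits a periodic tiling if and only if both do.  So if the periodic tiling
conjecture holds for `F` and for `E`, then it holds for `F × E`, and a product is a counterexample
to it if and only if both factors are tiles and one of them is a counterexample. -/
theorem result (G : Type u) (H : Type v) [AddCommGroup G] [AddCommGroup H] (F : Set G)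
    (E : Set H) :
    (IsTile (F ×ˢ E) ↔ IsTile F ∧ IsTile E) ∧
    (HasPeriodicTiling (F ×ˢ E) ↔ HasPeriodicTiling F ∧ HasPeriodicTiling E) ∧
    ((IsTile F → HasPeriodicTiling F) → (IsTile E → HasPeriodicTiling E) →
      (IsTile (F ×ˢ E) → HasPeriodicTiling (F ×ˢ E))) ∧
    ((IsTile (F ×ˢ E) ∧ ¬ HasPeriodicTiling (F ×ˢ E)) ↔
      (IsTile F ∧ IsTile E ∧ (¬ HasPeriodicTiling F ∨ ¬ HasPeriodicTiling E))) := by
  have h1 := isTile_prod F E
  have h2 := hasPeriodicTiling_prod F E
  refine ⟨h1, h2, ?_, ?_⟩
  · intro hF hE h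
    exact h2.mpr ⟨hF (h1.mp h).1, hE (h1.mp h).2⟩
  · rw [h1, h2]
    tauto

end Vale.Agent.Results.P043.ProductTiles
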